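import Mathlib

namespace Vale.Agent.Lib.P369

/-- The bosonic entropy function `g(t) = (t+1) log(t+1) - t log t` (natural logarithm).
With the convention `Real.log 0 = 0` this is `0` at `t = 0`, as in the problem file. -/
noncomputable def gfun (t : ℝ) : ℝ := (t + 1) * Real.log (t + 1) - t * Real.log t

end Vale.Agent.Lib.P369
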