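import Mathlib
import Vale.Agent.Lib.P369.Defs

namespace Vale.Agent.Lib.P369

open Real Set

theorem gfun_zero : gfun 0 = 0 := by
  simp [gfun]

theorem gfun_continuous : Continuous gfun := by
  unfold gfun
  have h1 : Continuous (fun t : ℝ => (t + 1) * Real.log (t + 1)) :=
    Real.continuous_mul_log.comp (continuous_id.add continuous_const)
  exact h1.sub Real.continuous_mul_log

/-- `(log (t+1) - log t)^2 ≤ 1/t - 1/(t+1)` for `t > 0`. -/
theorem log_diff_sq_le {t : ℝ} (ht : 0 < t) :
    (Real.log (t + 1) - Real.log t) ^ 2 ≤ 1 / t - 1 / (t + 1) := by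
  have ht1 : 0 < t + 1 := by linarith
  set L := Real.log (t + 1) - Real.log t with hL
  have hLnn : 0 ≤ L := by
    have : Real.log t ≤ Real.log (t + 1) := Real.log_le_log ht (by linarith)
    linarith
  have hu : 0 ≤ L / 2 := by linarith
  have hsinh : L / 2 ≤ Real.sinh (L / 2) := Real.self_le_sinh_iff.mpr hu
  have hsq : (L / 2) ^ 2 ≤ Real.sinh (L / 2) ^ 2 := by
    exact pow_le_pow_left₀ hu hsinh 2
  have hcosh : Real.cosh (2 * (L / 2)) = 1 + 2 * Real.sinh (L / 2) ^ 2 := by
    rw [Real.cosh_two_mul, Real.cosh_sq]; ring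
  have hexp1 : Real.exp L = (t + 1) / t := by
    rw [hL, Real.exp_sub, Real.exp_log ht1, Real.exp_log ht]
  have hexp2 : Real.exp (-L) = t / (t + 1) := by
    rw [Real.exp_neg, hexp1, inv_div]
  have hcosh2 : Real.cosh (2 * (L / 2)) = ((t + 1) / t + t / (t + 1)) / 2 := by
    have : 2 * (L / 2) = L := by ring
    rw [this, Real.cosh_eq, hexp1, hexp2]
  have key : 4 * Real.sinh (L / 2) ^ 2 = 1 / t - 1 / (t + 1) := by
    have h2 : 2 * Real.sinh (L / 2) ^ 2 = ((t + 1) / t + t / (t + 1)) / 2 - 1 := by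
      linarith
    have h3 : ((t + 1) / t + t / (t + 1)) / 2 - 1 = (1 / t - 1 / (t + 1)) / 2 := by
      field_simp
      ring
    linarith
  have : L ^ 2 = 4 * (L / 2) ^ 2 := by ring
  linarith

theorem hasDerivAt_gfun {t : ℝ} (ht : 0 < t) :
    HasDerivAt gfun (Real.log (t + 1) - Real.log t) t := by
  have ht1 : t + 1 ≠ 0 := by linarith
  have h1 : HasDerivAt (fun s : ℝ => (s + 1) * Real.log (s + 1)) (Real.log (t + 1) + 1) t := by
    have hinner : HasDerivAt (fun s : ℝ => s + 1) 1 t := (hasDerivAt_id t).add_const 1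
    have := hinner.mul (hinner.log ht1)
    exact this.congr_deriv (by field_simp)
  have h2 : HasDerivAt (fun s : ℝ => s * Real.log s) (Real.log t + 1) t :=
    Real.hasDerivAt_mul_log ht.ne'
  have := h1.sub h2
  exact this.congr_deriv (by ring)

/-- `φ = exp ∘ g`. -/
theorem hasDerivAt_exp_gfun {t : ℝ} (ht : 0 < t) :
    HasDerivAt (fun s => Real.exp (gfun s))
      (Real.exp (gfun t) * (Real.log (t + 1) - Real.log t)) t :=
  (hasDerivAt_gfun ht).exp

theorem hasDerivAt_exp_gfun_deriv {t : ℝ} (ht : 0 < t) :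
    HasDerivAt (fun s => Real.exp (gfun s) * (Real.log (s + 1) - Real.log s))
      (Real.exp (gfun t) * ((Real.log (t + 1) - Real.log t) ^ 2 + (1 / (t + 1) - 1 / t))) t := by
  have ht1 : t + 1 ≠ 0 := by linarith
  have hlog1 : HasDerivAt (fun s : ℝ => Real.log (s + 1)) (1 / (t + 1)) t := by
    have hinner : HasDerivAt (fun s : ℝ => s + 1) 1 t := (hasDerivAt_id t).add_const 1
    exact hinner.log ht1
  have hlog2 : HasDerivAt (fun s : ℝ => Real.log s) (1 / t) t := by
    simpa using Real.hasDerivAt_log ht.ne'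
  have := (hasDerivAt_exp_gfun ht).mul (hlog1.sub hlog2)
  exact this.congr_deriv (by simp only [Pi.sub_apply]; ring)

theorem concaveOn_exp_gfun : ConcaveOn ℝ (Ici (0 : ℝ)) (fun s => Real.exp (gfun s)) := by
  refine concaveOn_of_hasDerivWithinAt2_nonpos (convex_Ici 0)
    (f' := fun s => Real.exp (gfun s) * (Real.log (s + 1) - Real.log s))
    (f'' := fun t => Real.exp (gfun t) *
      ((Real.log (t + 1) - Real.log t) ^ 2 + (1 / (t + 1) - 1 / t)))
    (Real.continuous_exp.comp gfun_continuous).continuousOn ?_ ?_ ?_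
  · intro x hx
    rw [interior_Ici] at hx
    exact (hasDerivAt_exp_gfun hx).hasDerivWithinAt
  · intro x hx
    rw [interior_Ici] at hx
    exact (hasDerivAt_exp_gfun_deriv hx).hasDerivWithinAt
  · intro x hx
    rw [interior_Ici] at hx
    have hx' : (0 : ℝ) < x := hx
    have h := log_diff_sq_le hx'
    have : (Real.log (x + 1) - Real.log x) ^ 2 + (1 / (x + 1) - 1 / x) ≤ 0 := by linarith
    exact mul_nonpos_of_nonneg_of_nonpos (Real.exp_pos _).le this

/-- `exp (g T) ≥ e * T` for `T > 0`. -/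
theorem exp_gfun_ge_mul {T : ℝ} (hT : 0 < T) : Real.exp 1 * T ≤ Real.exp (gfun T) := by
  have hT1 : 0 < T + 1 := by linarith
  have h1 : 1 - ((T + 1) / T)⁻¹ ≤ Real.log ((T + 1) / T) :=
    Real.one_sub_inv_le_log_of_pos (div_pos hT1 hT)
  have h2 : Real.log ((T + 1) / T) = Real.log (T + 1) - Real.log T :=
    Real.log_div hT1.ne' hT.ne'
  have h3 : 1 - ((T + 1) / T)⁻¹ = 1 / (T + 1) := by
    rw [inv_div]; field_simp; ring
  have h4 : 1 / (T + 1) ≤ Real.log (T + 1) - Real.log T := by
    rw [← h2, ← h3]; exact h1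
  have h5 : 1 ≤ (T + 1) * (Real.log (T + 1) - Real.log T) := by
    have := mul_le_mul_of_nonneg_left h4 hT1.le
    rwa [mul_one_div_cancel hT1.ne'] at this
  have h6 : 1 + Real.log T ≤ gfun T := by
    unfold gfun; linarith
  calc Real.exp 1 * T = Real.exp (1 + Real.log T) := by
        rw [Real.exp_add, Real.exp_log hT]
    _ ≤ Real.exp (gfun T) := Real.exp_le_exp.mpr h6

/-- Lower bound: `exp (g t) ≥ 1 + e t` for `t ≥ 0`. -/
theorem one_add_mul_le_exp_gfun {t : ℝ} (ht : 0 ≤ t) :
    1 + Real.exp 1 * t ≤ Real.exp (gfun t) := by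
  rcases ht.eq_or_lt with h0 | hpos
  · rw [← h0, gfun_zero]; simp
  · apply le_of_forall_pos_le_add
    intro ε hε
    -- choose T large
    set T := max (t + 1) (t / ε) with hTdef
    have hTt : t < T := lt_of_lt_of_le (by linarith) (le_max_left _ _)
    have hT : 0 < T := lt_trans hpos hTt
    have hTε : t / T ≤ ε := by
      have h1 : t / ε ≤ T := le_max_right _ _
      rw [div_le_iff₀ hT]
      rw [div_le_iff₀ hε] at h1
      linarith [mul_comm T ε]
    have hconc := concaveOn_exp_gfun
    have hw1 : 0 ≤ 1 - t / T := by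
      rw [sub_nonneg, div_le_one hT]; exact hTt.le
    have hw2 : 0 ≤ t / T := div_nonneg hpos.le hT.le
    have hsum : (1 - t / T) + t / T = 1 := by ring
    have h0mem : (0 : ℝ) ∈ Ici (0 : ℝ) := le_refl (0 : ℝ)
    have hTmem : T ∈ Ici (0 : ℝ) := hT.le
    have hjen := hconc.2 h0mem hTmem hw1 hw2 hsum
    simp only [smul_eq_mul, mul_zero, zero_add] at hjen
    have hdiv : t / T * T = t := div_mul_cancel₀ t hT.ne'
    rw [hdiv, gfun_zero, Real.exp_zero, mul_one] at hjen
    have hge : t / T * (Real.exp 1 * T) ≤ t / T * Real.exp (gfun T) :=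
      mul_le_mul_of_nonneg_left (exp_gfun_ge_mul hT) hw2
    have heq : t / T * (Real.exp 1 * T) = Real.exp 1 * t := by
      rw [mul_comm (Real.exp 1) T, ← mul_assoc, hdiv, mul_comm]
    linarith

/-- auxiliary: `(1+u) log (1+u) - (1-u) log (1-u) ≤ 2u` on `[0,1)`. -/
theorem aux_F {u : ℝ} (hu0 : 0 ≤ u) (hu1 : u < 1) :
    (1 + u) * Real.log (1 + u) - (1 - u) * Real.log (1 - u) ≤ 2 * u := by
  set F : ℝ → ℝ := fun v => 2 * v - (1 + v) * Real.log (1 + v) + (1 - v) * Real.log (1 - v) with hF
  have hcont : Continuous F := by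
    have h1 : Continuous (fun v : ℝ => (1 + v) * Real.log (1 + v)) :=
      Real.continuous_mul_log.comp (continuous_const.add continuous_id)
    have h2 : Continuous (fun v : ℝ => (1 - v) * Real.log (1 - v)) :=
      Real.continuous_mul_log.comp (continuous_const.sub continuous_id)
    exact ((continuous_const.mul continuous_id).sub h1).add h2
  have hderiv : ∀ v ∈ Ioo (0 : ℝ) 1, HasDerivAt F (-(Real.log (1 + v) + Real.log (1 - v))) v := by
    intro v hv
    have hv1 : 1 + v ≠ 0 := by have := hv.1; linarith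
    have hv2 : 1 - v ≠ 0 := by have := hv.2; linarith
    have h1 : HasDerivAt (fun s : ℝ => (1 + s) * Real.log (1 + s)) (Real.log (1 + v) + 1) v := by
      have hinner : HasDerivAt (fun s : ℝ => 1 + s) 1 v := (hasDerivAt_id v).const_add 1
      have := hinner.mul (hinner.log hv1)
      exact this.congr_deriv (by field_simp)
    have h2 : HasDerivAt (fun s : ℝ => (1 - s) * Real.log (1 - s)) (-(Real.log (1 - v) + 1)) v := by
      have hinner : HasDerivAt (fun s : ℝ => 1 - s) (-1) v := (hasDerivAt_id v).const_sub 1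
      have := hinner.mul (hinner.log hv2)
      exact this.congr_deriv (by field_simp; ring)
    have h3 : HasDerivAt (fun s : ℝ => 2 * s) 2 v := by
      simpa using (hasDerivAt_id v).const_mul (2 : ℝ)
    have := (h3.sub h1).add h2
    exact this.congr_deriv (by ring)
  have hmono : MonotoneOn F (Ico (0 : ℝ) 1) := by
    apply monotoneOn_of_deriv_nonneg (convex_Ico 0 1) hcont.continuousOn
    · intro v hv
      rw [interior_Ico] at hv
      exact (hderiv v hv).differentiableAt.differentiableWithinAt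
    · intro v hv
      rw [interior_Ico] at hv
      rw [(hderiv v hv).deriv]
      have hv1 : 0 < 1 + v := by have := hv.1; linarith
      have hv2 : 0 < 1 - v := by have := hv.2; linarith
      have hprod : Real.log (1 + v) + Real.log (1 - v) = Real.log ((1 + v) * (1 - v)) :=
        (Real.log_mul hv1.ne' hv2.ne').symm
      have hle : Real.log ((1 + v) * (1 - v)) ≤ 0 := by
        apply Real.log_nonpos (mul_pos hv1 hv2).le
        nlinarith [sq_nonneg v]
      linarith
  have h0 : F 0 = 0 := by simp [hF]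
  have hFu : F 0 ≤ F u := hmono ⟨le_refl _, by norm_num⟩ ⟨hu0, hu1⟩ hu0
  rw [h0] at hFu
  simp only [hF] at hFu
  linarith

/-- Upper bound: `g t ≤ 1 + log (t + 1/2)` for `t > 0`. -/
theorem gfun_le {t : ℝ} (ht : 0 < t) : gfun t ≤ 1 + Real.log (t + 1 / 2) := by
  have ha : 0 < t + 1 := by linarith
  have hs : 0 < 2 * t + 1 := by linarith
  set u := 1 / (2 * t + 1) with hu
  have hu0 : 0 ≤ u := by positivity
  have hu1 : u < 1 := by
    rw [hu, div_lt_one hs]; linarith
  have h1u : 1 + u = 2 * (t + 1) / (2 * t + 1) := by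
    rw [hu]; field_simp; ring
  have h2u : 1 - u = 2 * t / (2 * t + 1) := by
    rw [hu]; field_simp; ring
  have hF := aux_F hu0 hu1
  rw [h1u, h2u] at hF
  have hl1 : Real.log (2 * (t + 1) / (2 * t + 1)) =
      Real.log 2 + Real.log (t + 1) - Real.log (2 * t + 1) := by
    rw [Real.log_div (by positivity) hs.ne', Real.log_mul (by norm_num) ha.ne']
  have hl2 : Real.log (2 * t / (2 * t + 1)) =
      Real.log 2 + Real.log t - Real.log (2 * t + 1) := by
    rw [Real.log_div (by positivity) hs.ne', Real.log_mul (by norm_num) ht.ne']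
  have hl3 : Real.log (t + 1 / 2) = Real.log (2 * t + 1) - Real.log 2 := by
    have : t + 1 / 2 = (2 * t + 1) / 2 := by ring
    rw [this, Real.log_div hs.ne' (by norm_num)]
  rw [hl1, hl2] at hF
  rw [hl3]
  unfold gfun
  -- multiply hF by (2t+1)/2
  have hmul := mul_le_mul_of_nonneg_left hF (show (0 : ℝ) ≤ (2 * t + 1) / 2 by positivity)
  have e1 : (2 * t + 1) / 2 * (2 * (t + 1) / (2 * t + 1) *
      (Real.log 2 + Real.log (t + 1) - Real.log (2 * t + 1)) -
      2 * t / (2 * t + 1) * (Real.log 2 + Real.log t - Real.log (2 * t + 1))) =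
      (t + 1) * (Real.log 2 + Real.log (t + 1) - Real.log (2 * t + 1)) -
      t * (Real.log 2 + Real.log t - Real.log (2 * t + 1)) := by
    field_simp
  have e2 : (2 * t + 1) / 2 * (2 * u) = 1 := by
    rw [hu]; field_simp
  rw [e1, e2] at hmul
  linarith

/-- Upper bound: `exp (g t) ≤ e (t + 1/2)` for `t ≥ 0`. -/
theorem exp_gfun_le {t : ℝ} (ht : 0 ≤ t) : Real.exp (gfun t) ≤ Real.exp 1 * (t + 1 / 2) := by
  rcases ht.eq_or_lt with h0 | hpos
  · rw [← h0, gfun_zero, Real.exp_zero]
    have := Real.exp_one_gt_d9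
    norm_num
    linarith
  · have h := gfun_le hpos
    have hpos' : 0 < t + 1 / 2 := by linarith
    calc Real.exp (gfun t) ≤ Real.exp (1 + Real.log (t + 1 / 2)) := Real.exp_le_exp.mpr h
      _ = Real.exp 1 * (t + 1 / 2) := by rw [Real.exp_add, Real.exp_log hpos']

end Vale.Agent.Lib.P369

namespace Vale.Agent.Lib.P369

open Real Set

/-- `t ↦ exp (g t) - e t` is monotone on `[0, ∞)`. -/
theorem exp_gfun_sub_mono {s t : ℝ} (hs : 0 ≤ s) (hst : s ≤ t) :
    Real.exp (gfun s) - Real.exp 1 * s ≤ Real.exp (gfun t) - Real.exp 1 * t := by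
  rcases hst.eq_or_lt with h | hlt
  · rw [h]
  · have ht : 0 < t := lt_of_le_of_lt hs hlt
    have he : 0 < Real.exp 1 := Real.exp_pos 1
    have hslope : Real.exp 1 ≤ (Real.exp (gfun t) - Real.exp (gfun s)) / (t - s) := by
      apply le_of_forall_sub_le
      intro ε hε
      set T := t + Real.exp 1 / (2 * ε) with hT
      have hd : 0 < Real.exp 1 / (2 * ε) := by positivity
      have htT : t < T := by rw [hT]; linarith
      have hTpos : 0 < T := lt_trans ht htT
      have h1 := concaveOn_exp_gfun.slope_anti_adjacent (x := s) (y := t) (z := T)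
        hs hTpos.le hlt htT
      have h2 : Real.exp 1 - ε ≤ (Real.exp (gfun T) - Real.exp (gfun t)) / (T - t) := by
        have hTt : T - t = Real.exp 1 / (2 * ε) := by rw [hT]; ring
        rw [le_div_iff₀ (by linarith)]
        have h3 := exp_gfun_ge_mul hTpos
        have h4 := exp_gfun_le ht.le
        have h5 : ε * (T - t) = Real.exp 1 / 2 := by
          rw [hTt]; field_simp
        nlinarith
      linarith
    rw [le_div_iff₀ (by linarith)] at hslope
    linarith

end Vale.Agent.Lib.P369
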